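import Vale.Agent.P207.N7.H547.AffLemB
import Vale.Agent.P207.N4.H709.DarB
import Vale.Agent.P207.N4.H734.NearClk

/-!
# P207, line N7, row P2: near pairs, over the picture

* `near_of` : a property which holds near the pairs `(x, em x)`, invariant under the group, holds for
  all pairs with small angle (469's lemma, without rates);
* `hol_small` : for a small angle the orbits of `x` and of `hol ξ x` stay close for all `t ≥ 0`;
* `near_sg` : the clocks of `x` and of `hol ξ x`;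
* `near_rate` : the rates along the orbit of `hol ξ x` in the clock of `x`.
-/

set_option linter.unusedSectionVars false

open Set Filter Topology Metric
open scoped ContDiff

noncomputable section

namespace Vale.Agent.P207.N4.Y.H734

open Vale.Agent.P207.N3

variable [Dim]

variable {Γ X B : Type} [Group Γ] [MetricSpace X] [ProperSpace X] [MulAction Γ X]
  [IsIsometricSMul Γ X] [TopologicalSpace B] [CompactSpace B] [T2Space B] [MulAction Γ B]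
  [ContinuousConstSMul Γ B] [MeasurableSpace B] [BorelSpace B] {L : Leaf Γ X B}
  {V : Type} [NormedAddCommGroup V] [NormedSpace ℝ V] [FiniteDimensional ℝ V]

variable (P : Pic L V)

theorem gr0_cont : Continuous fun p : X × B => P.gr p.1 p.2 0 := by
  have h1 : (fun p : X × B => P.gr p.1 p.2 0) = fun p => P.Af.c⁻¹ •
      gradient (P.Bu.be p.1 p.2) 0 := by
    funext p
    exact P.gr_zero p.1 p.2
  rw [h1]
  have h2 : Continuous fun p : X × B => gradient (P.Bu.be p.1 p.2) 0 := H709.grad0_cont P.Bu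
  exact h2.const_smul P.Af.c⁻¹

theorem eq_em (x : X) (ξ : B) (hnu : 0 ≤ P.Bu.nu x ξ 0) (h : P.gr x ξ 0 = 0) : ξ = L.em x := by
  rw [P.gr_zero, smul_eq_zero_iff_right (inv_ne_zero P.Af.c_pos.ne')] at h
  refine P.Bu.cov_inj x ξ (L.em x) 0 (mem_ball_self (by norm_num)) hnu (P.Bu.nu_em x).le ?_
  rw [h, P.Bu.be_crit]

theorem nr_smul (g : Γ) {ε : ℝ} {x : X} {ξ : B} (h : P.Nr ε x ξ) : P.Nr ε (g • x) (g • ξ) := by
  refine ⟨?_, ?_⟩
  · rw [P.Bu.nu_smul g x ξ 0 (mem_ball_self (by norm_num))]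
    exact h.1
  · rw [P.gr_smul g (P.Af.zero_dT x) ξ]
    exact h.2

/-- a property which holds near the pairs `(x, em x)`, invariant under the group, holds for
all pairs with small angle. -/
theorem near_of {R : X → B → Prop} (hinv : ∀ (g : Γ) x ξ, R (g • x) (g • ξ) → R x ξ)
    (h : ∀ x, ∀ᶠ p : X × B in 𝓝 (x, L.em x), R p.1 p.2) :
    ∃ ε > 0, ∀ x ξ, P.Nr ε x ξ → R x ξ := by
  obtain ⟨K, hK, hK'⟩ := L.cocompact
  set U : Set (X × B) := interior {p : X × B | R p.1 p.2} with hU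
  set C : Set (X × B) := (K ×ˢ univ) ∩ ({p | 0 ≤ P.Bu.nu p.1 p.2 0} ∩ Uᶜ) with hC
  have hCc : IsCompact C := by
    refine (hK.prod isCompact_univ).inter_right ?_
    refine IsClosed.inter ?_ isOpen_interior.isClosed_compl
    exact isClosed_le continuous_const (H709.nu0_cont P.Bu)
  have hpos : ∀ p ∈ C, 0 < ‖P.gr p.1 p.2 0‖ := by
    rintro ⟨x, ξ⟩ ⟨-, h1, h2⟩
    rw [norm_pos_iff]
    intro h3
    have h4 := eq_em P x ξ h1 h3
    subst h4
    exact h2 (mem_interior_iff_mem_nhds.2 (h x))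
  obtain ⟨ε, hε, hε'⟩ : ∃ ε > 0, ∀ p ∈ C, ε < ‖P.gr p.1 p.2 0‖ := by
    rcases C.eq_empty_or_nonempty with h1 | h1
    · exact ⟨1, one_pos, by rw [h1]; simp⟩
    · obtain ⟨p, hp, hmin⟩ := hCc.exists_isMinOn h1 (gr0_cont P).norm.continuousOn
      refine ⟨‖P.gr p.1 p.2 0‖ / 2, by have := hpos p hp; positivity, fun q hq => ?_⟩
      have h2 : ‖P.gr p.1 p.2 0‖ ≤ ‖P.gr q.1 q.2 0‖ := hmin hq
      have h3 := hpos p hp
      linarith
  refine ⟨ε, hε, fun x ξ hx => ?_⟩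
  obtain ⟨g, hg⟩ := hK' x
  have h1 := nr_smul P g hx
  refine hinv g x ξ ?_
  by_contra h2
  have h3 : (g • x, g • ξ) ∈ C := by
    refine ⟨⟨hg, mem_univ _⟩, h1.1.le, fun h4 => h2 ?_⟩
    exact (interior_subset : interior {p : X × B | R p.1 p.2} ⊆ {p : X × B | R p.1 p.2}) h4
  have h4 := hε' _ h3
  exact absurd h1.2 (not_le.2 h4)

/-- **near pairs stay near**: for a small angle the orbits of `x` and of `hol ξ x` are `δ`-close for
all positive times -/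
theorem hol_small {δ : ℝ} (hδ : 0 < δ) : ∃ ε > 0, ∀ x ξ, P.Nr ε x ξ → ξ ≠ L.ep x ∧
    ∀ t, 0 ≤ t → dist (L.φ t x) (L.φ t (L.hol ξ x)) ≤ δ :=
  near_of P (R := fun x ξ => Vale.Agent.P207.N4.H734.HolSm L δ x ξ)
    (fun g x ξ h => Vale.Agent.P207.N4.H734.holSm_smul g x ξ h)
    (Vale.Agent.P207.N4.H734.ev_small L hδ)

/-- **(P2)** the clocks of `x` and of `hol ξ x`, for a small angle -/
theorem near_sg {η : ℝ} (hη : 0 < η) : ∃ ε > 0, ∀ x ξ, P.Nr ε x ξ → ξ ≠ L.ep x ∧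
    ∀ t, 0 ≤ t → |P.sg t (L.hol ξ x) - P.sg t x| ≤ η * t ∧
      (1 - η) * P.sg t x ≤ P.sg t (L.hol ξ x) ∧ P.sg t (L.hol ξ x) ≤ (1 + η) * P.sg t x := by
  obtain ⟨δ, hδ, h⟩ := Vale.Agent.P207.N4.H734.clk_hol L P.Ra.c_cont P.Ra.c_smul P.Ra.c₀_pos
    P.Ra.c_lo P.Ra.c_hi hη
  obtain ⟨ε, hε, h'⟩ := hol_small P hδ
  exact ⟨ε, hε, fun x ξ hx => ⟨(h' x ξ hx).1, h x ξ (h' x ξ hx)⟩⟩

theorem sg_nonneg {t : ℝ} (ht : 0 ≤ t) (x : X) : 0 ≤ P.sg t x :=
  (mul_nonneg P.Ra.c₀_pos.le ht).trans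
    (Vale.Agent.P207.N4.H734.clk_bounds L P.Ra.c_cont P.Ra.c_lo P.Ra.c_hi ht x).1

/-- **(P2)** the rates along the orbit of `hol ξ x`, in the clock of `x` (the slack pays) -/
theorem near_rate : ∃ ε > 0, ∀ x ξ, P.Nr ε x ξ → ξ ≠ L.ep x ∧ ∀ t, P.Ra.T ≤ t → ∀ v,
    Real.exp (P.Ra.a * P.sg t x) * ‖v‖ ≤
      ‖fderiv ℝ (L.τ (L.hol ξ x) (L.φ t (L.hol ξ x))) 0 v‖ ∧
    ‖fderiv ℝ (L.τ (L.hol ξ x) (L.φ t (L.hol ξ x))) 0 v‖ ≤
      Real.exp (P.Ra.b * P.sg t x) * ‖v‖ := by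
  have ha := P.Ra.a_pos
  have hab := P.Ra.a_le_b
  have hsl := P.Ra.sl_pos
  have hb : 0 < P.Ra.b := ha.trans_le hab
  set η : ℝ := min (1 / 2) (P.Ra.sl / (P.Ra.a + P.Ra.b + P.Ra.sl)) with hη
  have hD : 0 < P.Ra.a + P.Ra.b + P.Ra.sl := by positivity
  have hη0 : 0 < η := lt_min (by norm_num) (div_pos hsl hD)
  have hη1 : η * (P.Ra.a + P.Ra.b + P.Ra.sl) ≤ P.Ra.sl := by
    rw [← le_div_iff₀ hD]
    exact min_le_right _ _
  obtain ⟨ε, hε, h⟩ := near_sg P hη0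
  refine ⟨ε, hε, fun x ξ hx => ⟨(h x ξ hx).1, fun t ht v => ?_⟩⟩
  have ht0 : 0 ≤ t := P.Ra.T_pos.le.trans ht
  obtain ⟨-, h1, h2⟩ := (h x ξ hx).2 t ht0
  obtain ⟨h3, h4⟩ := P.Ra.rate t ht (L.hol ξ x) v
  have hs := sg_nonneg P ht0 x
  have hs' := sg_nonneg P ht0 (L.hol ξ x)
  change Real.exp ((P.Ra.a + P.Ra.sl) * P.sg t (L.hol ξ x)) * ‖v‖ ≤ _ at h3
  change _ ≤ Real.exp ((P.Ra.b - P.Ra.sl) * P.sg t (L.hol ξ x)) * ‖v‖ at h4
  constructor
  · refine le_trans (mul_le_mul_of_nonneg_right (Real.exp_le_exp.2 ?_) (norm_nonneg _)) h3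
    have h5 : P.Ra.a ≤ (P.Ra.a + P.Ra.sl) * (1 - η) := by nlinarith
    calc P.Ra.a * P.sg t x ≤ (P.Ra.a + P.Ra.sl) * (1 - η) * P.sg t x :=
          mul_le_mul_of_nonneg_right h5 hs
      _ = (P.Ra.a + P.Ra.sl) * ((1 - η) * P.sg t x) := by ring
      _ ≤ _ := mul_le_mul_of_nonneg_left h1 (by positivity)
  · refine h4.trans (mul_le_mul_of_nonneg_right (Real.exp_le_exp.2 ?_) (norm_nonneg _))
    rcases le_total 0 (P.Ra.b - P.Ra.sl) with h6 | h6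
    · have h5 : (P.Ra.b - P.Ra.sl) * (1 + η) ≤ P.Ra.b := by nlinarith
      calc (P.Ra.b - P.Ra.sl) * P.sg t (L.hol ξ x)
          ≤ (P.Ra.b - P.Ra.sl) * ((1 + η) * P.sg t x) := mul_le_mul_of_nonneg_left h2 h6
        _ = (P.Ra.b - P.Ra.sl) * (1 + η) * P.sg t x := by ring
        _ ≤ _ := mul_le_mul_of_nonneg_right h5 hs
    · have h5 := mul_nonpos_of_nonpos_of_nonneg h6 hs'
      have h7 := mul_nonneg hb.le hs
      linarith

end Vale.Agent.P207.N4.Y.H734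

end
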